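import Vale.Agent.Lib.P154.Final2

/-!
Nonreconstruction for the three-state Potts channel on the binary tree, up to the Kesten-Stigum
bound, for all admissible eigenvalues of either sign.
-/

open Filter Topology in
/-- For the three-state Potts channel with eigenvalue `lam` (all admissible `lam`, ferromagnetic
or antiferromagnetic) on the rooted binary tree, `2 * lam ^ 2 ≤ 1` implies nonreconstruction:
the quantity `a_n` tends to zero. -/
theorem Vale.Agent.Results.P154.BinaryTree.result (lam : ℝ) (h1 : -(1 / 2) ≤ lam)
    (h2 : 2 * lam ^ 2 ≤ 1) :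
    Tendsto (fun n => Vale.Agent.Lib.P154.reconstructionGap 3 2 lam n) atTop (𝓝 0) :=
  Vale.Agent.Lib.P154.D2.nonreconstruction h1 (by nlinarith) h2
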