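import Vale.Agent.Lib.P154.Final2
import Vale.Agent.Lib.P154.ST.Chart
import Vale.Agent.Lib.P154.ST3.Step

/-!
The Kesten-Stigum bound is sharp for the ferromagnetic three-state Potts channel on regular trees of
every degree.
-/

open Filter Topology in
/-- For the three-state Potts channel with eigenvalue `lam ≥ 0` on the rooted `d`-ary tree with
`d ≥ 2`, `d * lam ^ 2 ≤ 1` implies nonreconstruction: the quantity `a_n` tends to zero. -/
theorem Vale.Agent.Results.P154.FerroComplete.result (d : ℕ) (lam : ℝ) (hd : 2 ≤ d) (h0 : 0 ≤ lam)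
    (h : (d : ℝ) * lam ^ 2 ≤ 1) :
    Tendsto (fun n => Vale.Agent.Lib.P154.reconstructionGap 3 d lam n) atTop (𝓝 0) := by
  by_cases h1 : lam ≤ 1 / 2
  · exact Vale.Agent.Lib.P154.ST.nonreconstruction_star (by omega) h0 h1 h
  · have h1' : 1 / 2 < lam := not_le.1 h1
    have hd4 : d < 4 := by
      by_contra hc
      have hc' : (4 : ℝ) ≤ d := by
        have : 4 ≤ d := not_lt.1 hc
        exact_mod_cast this
      nlinarith
    have hd' : d = 2 ∨ d = 3 := by omega
    rcases hd' with rfl | rfl
    · have h2 : 2 * lam ^ 2 ≤ 1 := by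
        simpa using h
      exact Vale.Agent.Lib.P154.D2.nonreconstruction (by linarith) (by nlinarith) h2
    · have h2 : 3 * lam ^ 2 ≤ 1 := by
        simpa using h
      exact Vale.Agent.Lib.P154.ST3.nonreconstruction_upper h1'.le h2
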