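import Vale.Agent.Lib.P154.Final2
import Vale.Agent.Lib.P154.ST.Chart
import Vale.Agent.Lib.P154.ST3.Step
import Vale.Agent.Lib.P154.SN.Final

/-!
The Kesten-Stigum bound is sharp for the three-state Potts channel on regular trees of every
degree, for all nonnegative eigenvalues and for negative eigenvalues down to `-6691 / 16384`,
which is below `-1 / sqrt 6`. On the binary tree every admissible eigenvalue is covered.
-/

open Filter Topology in
/-- For the three-state Potts channel with eigenvalue `lam` on the rooted `d`-ary tree, `d ≥ 2`,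
with `d * lam ^ 2 ≤ 1` and `-1 / 2 ≤ lam`: if `d = 2` or `-6691 / 16384 ≤ lam`, then the quantity
`a_n` tends to zero. Since `6691 / 16384 > 1 / sqrt 6`, no restriction on `lam` remains for `d ≥ 6`. -/
theorem Vale.Agent.Results.P154.ThreeStateRange.result (d : ℕ) (lam : ℝ) (hd : 2 ≤ d)
    (h0 : -(1 / 2) ≤ lam) (h1 : d = 2 ∨ -(6691 / 16384) ≤ lam) (h : (d : ℝ) * lam ^ 2 ≤ 1) :
    Tendsto (fun n => Vale.Agent.Lib.P154.reconstructionGap 3 d lam n) atTop (𝓝 0) := by
  rcases lt_or_ge lam 0 with hneg | hnn
  · rcases h1 with e | hl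
    · subst e
      have h2 : 2 * lam ^ 2 ≤ 1 := by
        simpa using h
      exact Vale.Agent.Lib.P154.D2.nonreconstruction h0 (by nlinarith) h2
    · exact Vale.Agent.Lib.P154.SN.nonrec_neg hd hl hneg h
  · by_cases h1' : lam ≤ 1 / 2
    · exact Vale.Agent.Lib.P154.ST.nonreconstruction_star (by omega) hnn h1' h
    · have h1'' : 1 / 2 < lam := not_le.1 h1'
      have hd4 : d < 4 := by
        by_contra hc
        have hc' : (4 : ℝ) ≤ d := by
          have : 4 ≤ d := not_lt.1 hc
          exact_mod_cast this
        nlinarith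
      have hd' : d = 2 ∨ d = 3 := by omega
      rcases hd' with rfl | rfl
      · have h2 : 2 * lam ^ 2 ≤ 1 := by
          simpa using h
        exact Vale.Agent.Lib.P154.D2.nonreconstruction (by linarith) (by nlinarith) h2
      · have h2 : 3 * lam ^ 2 ≤ 1 := by
          simpa using h
        exact Vale.Agent.Lib.P154.ST3.nonreconstruction_upper h1''.le h2
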