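import Vale.Agent.Lib.P154.Final2
import Vale.Agent.Lib.P154.ST.Chart
import Vale.Agent.Lib.P154.ST3.Step
import Vale.Agent.Lib.P154.SN.Final
import Vale.Agent.Lib.P154.SF.Summ

/-!
The Kesten-Stigum bound is sharp for the three-state Potts channel on regular trees and on
Galton-Watson trees with Poisson offspring, in the following ranges of the eigenvalue.

Regular trees of integer degree `d ≥ 2`: all nonnegative eigenvalues and negative eigenvalues down to
`-6691 / 16384`, below `-1 / sqrt 6`; on the binary tree all eigenvalues.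

Poisson(d) trees, all real `d > 0`: `-399 / 1024 ≤ lam ≤ 229 / 512`, and here `229 / 512 > 1 / sqrt 5`
and `399 / 1024 > 1 / sqrt 6.59`.
-/

open Filter Topology Vale.Agent.Lib.P154 in
/-- First part: for the three-state Potts channel with eigenvalue `lam` on the rooted `d`-ary tree,
`d ≥ 2`, with `d * lam ^ 2 ≤ 1` and `-1 / 2 ≤ lam`: if `d = 2` or `-6691 / 16384 ≤ lam`, then `a_n`
tends to zero.

Second part: on the Galton-Watson tree with Poisson(d) offspring, `d > 0`, if
`-399 / 1024 ≤ lam ≤ 229 / 512` and `d * lam ^ 2 ≤ 1`, then the series defining `a_n` converges for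
every `n`, and `a_n` tends to zero. -/
theorem Vale.Agent.Results.P154.ThreeStateTwoTrees.result :
    (∀ (d : ℕ) (lam : ℝ), 2 ≤ d → -(1 / 2) ≤ lam → (d = 2 ∨ -(6691 / 16384) ≤ lam) →
      (d : ℝ) * lam ^ 2 ≤ 1 → Tendsto (fun n => reconstructionGap 3 d lam n) atTop (𝓝 0)) ∧
    (∀ (d lam : ℝ), 0 < d → -(399 / 1024) ≤ lam → lam ≤ 229 / 512 → d * lam ^ 2 ≤ 1 →
      (∀ n : ℕ, Summable (fun s : PS.GWObs 3 n => PS.gwProb 3 d lam n s *
        ((1 / 2) * ∑ i : Fin 3, |PS.gwPosterior 3 d lam n s i - 1 / ((3 : ℕ) : ℝ)|))) ∧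
      Tendsto (fun n => PS.gwGap 3 d lam n) atTop (𝓝 0)) := by
  refine ⟨?_, ?_⟩
  · intro d lam hd h0 h1 h
    rcases lt_or_ge lam 0 with hneg | hnn
    · rcases h1 with e | hl
      · subst e
        have h2 : 2 * lam ^ 2 ≤ 1 := by
          simpa using h
        exact D2.nonreconstruction h0 (by nlinarith) h2
      · exact SN.nonrec_neg hd hl hneg h
    · by_cases h1' : lam ≤ 1 / 2
      · exact ST.nonreconstruction_star (by omega) hnn h1' h
      · have h1'' : 1 / 2 < lam := not_le.1 h1'
        have hd4 : d < 4 := by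
          by_contra hc
          have hc' : (4 : ℝ) ≤ d := by
            have : 4 ≤ d := not_lt.1 hc
            exact_mod_cast this
          nlinarith
        have hd' : d = 2 ∨ d = 3 := by omega
        rcases hd' with rfl | rfl
        · have h2 : 2 * lam ^ 2 ≤ 1 := by
            simpa using h
          exact D2.nonreconstruction (by linarith) (by nlinarith) h2
        · have h2 : 3 * lam ^ 2 ≤ 1 := by
            simpa using h
          exact ST3.nonreconstruction_upper h1''.le h2
  · intro d lam hd h0 h1 h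
    refine ⟨fun n => PS.gwGap_summable hd.le (by linarith) (by linarith) n, ?_⟩
    exact SF.nonrec_gw hd.le h0 h1 h
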